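import Vale.Agent.Lib.P154.Neg.LP.B4800.D

/-!
Part of the computations of a certificate for a restricted range of `theta`.
-/

namespace Vale.Agent.Lib.P154.Neg.B4800

open Vale.Agent.Lib.P154.Neg.Kron Vale.Agent.Lib.P154.Neg Vale.Agent.Lib.P154.Neg.Cst

theorem ctQ3_20 : checkTree 4 (eQ3t C) btQ3_19l tQ3_20 = true := by decide +kernel

theorem ctQ3_22 : checkTree 4 (eQ3t C) btQ3_21l tQ3_22 = true := by decide +kernel

theorem ctQ3_23 : checkTree 4 (eQ3t C) btQ3_21r tQ3_23 = true := by decide +kernel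

theorem ctQ3_24 : checkTree 4 (eQ3t C) btQ3_18r tQ3_24 = true := by decide +kernel

end Vale.Agent.Lib.P154.Neg.B4800
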